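import Vale.Agent.P141.R2.H4.SumsQ
import Vale.Agent.P141.R2.H792.Lac
import Vale.Agent.P141.R2.H497.LacCantor

/-!
# P141: no loss for one function of bounded `q`-variation, piecewise regular functions, and
averages of `T` over intervals
-/

namespace Vale.Agent.Results.P141.AveragesAndVariation

open Vale.Agent.P141 MeasureTheory Filter Topology
open scoped ENNReal SchwartzMap

/-- `P` is regular: an amplitude bounded by one and of `q`-variation at most one, times a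
quadratic phase. -/
def Reg (q : ℝ) (P : ℝ → ℂ) : Prop :=
  ∃ (u : ℝ → ℂ) (a b : ℝ), (∀ x, ‖u x‖ ≤ 1) ∧
    (∀ (n : ℕ) (x : ℕ → ℝ), Monotone x →
      ∑ i ∈ Finset.range n, ‖u (x (i + 1)) - u (x i)‖ ^ q ≤ 1) ∧
    ∀ x, P x = u x * Complex.exp (Complex.I * ((a * x ^ 2 + b * x : ℝ) : ℂ))

/-- `D` consists of `N` regular pieces: the line is cut into `N` consecutive intervals
`{k = 0}, ..., {k = N - 1}` (of any lengths, possibly empty), with a regular function on each. -/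
def Pieces (q : ℝ) (N : ℕ) (D : ℝ → ℂ) : Prop :=
  ∃ (k : ℝ → ℕ) (P : ℕ → ℝ → ℂ), Monotone k ∧ (∀ x, k x < N) ∧ (∀ j, Reg q (P j)) ∧
    ∀ x, D x = P (k x) x

/-- `D` is regular off `S`: `D = P_j` on `{k = j}` with regular `P_j`, where `k` is constant on
each interval without points of `S`.  There may be infinitely many pieces. -/
def RegOff (q : ℝ) (S : Set ℝ) (D : ℝ → ℂ) : Prop :=
  ∃ (k : ℝ → ℕ) (P : ℕ → ℝ → ℂ), Measurable k ∧
    (∀ x y, |x - y| < Metric.infDist x S → k y = k x) ∧ (∀ j, Reg q (P j)) ∧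
    ∀ x, D x = P (k x) x

/-- Aikawa's condition: `S` is closed, not empty, of measure zero, and the integral of
`dist(z,S)^(-a)` over `[y - ρ, y + ρ]` is at most `K ρ^(1-a)` for some `0 < a < 1` and `K` and
all intervals with `dist(y,S) ≤ ρ`. -/
def Aikawa (S : Set ℝ) : Prop :=
  IsClosed S ∧ S.Nonempty ∧ volume S = 0 ∧ ∃ a K : ℝ, 0 < a ∧ a < 1 ∧ 0 ≤ K ∧
    ∀ y ρ : ℝ, 0 < ρ → Metric.infDist y S ≤ ρ →
      ∫⁻ z in Set.Icc (y - ρ) (y + ρ), ENNReal.ofReal (Metric.infDist z S ^ (-a)) ≤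
        ENNReal.ofReal (K * ρ ^ (1 - a))

/-- the truncations converge almost everywhere (to `T`) -/
def PV (f₁ f₂ f₃ : ℝ → ℂ) : Prop :=
  ∀ᵐ x : ℝ, Tendsto (fun q : ℝ × ℝ => truncTHT f₁ f₂ f₃ q.1 q.2 x) (𝓝[>] (0 : ℝ) ×ˢ atTop)
    (𝓝 (THT f₁ f₂ f₃ x))

/-- `T` and all its truncations are bounded by `A` with `D` in any of the four places -/
def Bdd4 (A : ℝ) (D : ℝ → ℂ) : Prop :=
  ∀ f g h : 𝓢(ℝ, ℂ),
    (PV D f g ∧ eLpNorm (THT D f g) (3 / 2) volume ≤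
      ENNReal.ofReal A * eLpNorm f 3 volume * eLpNorm g 3 volume) ∧
    (PV f D g ∧ eLpNorm (THT f D g) (3 / 2) volume ≤
      ENNReal.ofReal A * eLpNorm f 3 volume * eLpNorm g 3 volume) ∧
    (PV f g D ∧ eLpNorm (THT f g D) (3 / 2) volume ≤
      ENNReal.ofReal A * eLpNorm f 3 volume * eLpNorm g 3 volume) ∧
    ∀ ε R : ℝ, 0 < ε → ε < R →
      eLpNorm (truncTHT D f g ε R) (3 / 2) volume ≤
        ENNReal.ofReal A * eLpNorm f 3 volume * eLpNorm g 3 volume ∧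
      eLpNorm (truncTHT f D g ε R) (3 / 2) volume ≤
        ENNReal.ofReal A * eLpNorm f 3 volume * eLpNorm g 3 volume ∧
      eLpNorm (truncTHT f g D ε R) (3 / 2) volume ≤
        ENNReal.ofReal A * eLpNorm f 3 volume * eLpNorm g 3 volume ∧
      ‖∫ x, D x * truncTHT f g h ε R x‖ ≤ A * ((eLpNorm f 3 volume).toReal *
        (eLpNorm g 3 volume).toReal * (eLpNorm h 3 volume).toReal)

theorem Aikawa.aik {S : Set ℝ} (h : Aikawa S) :
    ∃ a K : ℝ, R2.H4.Aik (fun x => Metric.infDist x S) a K := by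
  obtain ⟨hc, hn, hv, a, K, ha, ha1, hK, hint⟩ := h
  refine ⟨a, K, ⟨fun x => Metric.infDist_nonneg, fun x y => ?_, ?_, ha, ha1, hK, hint⟩⟩
  · have := Metric.infDist_le_infDist_add_dist (s := S) (x := x) (y := y)
    rwa [Real.dist_eq] at this
  · have h0 : ∀ᵐ x : ℝ, x ∉ S := measure_eq_zero_iff_ae_notMem.1 hv
    filter_upwards [h0] with x hx
    exact (hc.notMem_iff_infDist_pos hn).1 hx

theorem result :
    -- (1) `N` pieces of arbitrary lengths: the logarithm of `N`; no loss for one piece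
    (∀ q : ℝ, 1 ≤ q → ∃ C : ℝ, ∀ (N : ℕ) (D : ℝ → ℂ), Pieces q N D →
      Bdd4 (C * (1 + Real.log N)) D) ∧
    -- (2) any number of pieces, separated by a set satisfying Aikawa's condition: no loss
    (∀ q : ℝ, 1 ≤ q → ∀ S : Set ℝ, Aikawa S → ∃ C : ℝ, ∀ D : ℝ → ℂ, RegOff q S D → Bdd4 C D) ∧
    -- (3) Cantor's set and the dyadic points satisfy this condition
    (Aikawa cantorSet ∧ Aikawa {x : ℝ | x = 0 ∨ ∃ k : ℤ, |x| = (2 : ℝ) ^ k}) ∧
    -- (4) averages of `T` over `N` arbitrary consecutive intervals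
    (∀ q : ℝ, 1 ≤ q → ∃ C : ℝ, ∀ (N : ℕ) (a : ℕ → ℝ), Monotone a →
      ∀ P : ℕ → ℝ → ℂ, (∀ j, Reg q (P j)) → ∀ f g h : 𝓢(ℝ, ℂ),
      ∑ k ∈ Finset.range N, ‖∫ x in a k..a (k + 1), P k x * THT f g h x‖ ≤
        C * (1 + Real.log N) * ((eLpNorm f 3 volume).toReal * (eLpNorm g 3 volume).toReal *
          (eLpNorm h 3 volume).toReal)) ∧
    -- (5) averages of `T` over any number of intervals with endpoints in `S`: no loss
    (∀ q : ℝ, 1 ≤ q → ∀ S : Set ℝ, Aikawa S → ∃ C : ℝ, ∀ (N : ℕ) (a : ℕ → ℝ), Monotone a →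
      (∀ j, a j ∈ S) → ∀ P : ℕ → ℝ → ℂ, (∀ j, Reg q (P j)) → ∀ f g h : 𝓢(ℝ, ℂ),
      ∑ k ∈ Finset.range N, ‖∫ x in a k..a (k + 1), P k x * THT f g h x‖ ≤
        C * ((eLpNorm f 3 volume).toReal * (eLpNorm g 3 volume).toReal *
          (eLpNorm h 3 volume).toReal)) ∧
    -- (6) averages of `T` over one interval, all exponents at least three
    (∃ C : ℝ, ∀ p₁ p₂ p₃ r : ℝ≥0∞, IsHolderTuple p₁ p₂ p₃ r → 3 ≤ p₁ → 3 ≤ p₂ → 3 ≤ p₃ →
      ∀ (f₁ f₂ f₃ : 𝓢(ℝ, ℂ)) (a b : ℝ), a ≤ b →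
        ‖∫ x in a..b, THT f₁ f₂ f₃ x‖ ≤ C * r.toReal * (b - a) ^ (1 - 1 / r.toReal) *
          ((eLpNorm f₁ p₁ volume).toReal * (eLpNorm f₂ p₂ volume).toReal *
            (eLpNorm f₃ p₃ volume).toReal)) := by
  refine ⟨fun q hq => ?_, fun q hq S hS => ?_, ⟨?_, ?_⟩, fun q hq => ?_, fun q hq S hS => ?_, ?_⟩
  · obtain ⟨C, hC⟩ := R2.H4.pieces_q hq
    refine ⟨C, fun N D hD => ?_⟩
    obtain ⟨k, P, hk, hN, hP, e⟩ := hD
    have e' : D = fun x => P (k x) x := funext e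
    rw [e']
    exact hC N k P hk hN hP
  · obtain ⟨a, K, h⟩ := hS.aik
    obtain ⟨C, hC⟩ := R2.H4.porous_q hq h
    refine ⟨C, fun D hD => ?_⟩
    obtain ⟨k, P, hk, hl, hP, e⟩ := hD
    have e' : D = fun x => P (k x) x := funext e
    rw [e']
    exact hC k P hk hl hP
  · obtain ⟨K, hK, h⟩ := R2.H497.lac_cantor (1 / 3) (by norm_num) (by
      have h1 : (3 : ℝ) ^ ((1 : ℝ) / 3 - 1) = ((3 : ℝ) ^ (2 : ℝ)) ^ (-(1 : ℝ) / 3) := by
        rw [← Real.rpow_mul (by norm_num)]; norm_num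
      have h2 : ((8 : ℝ)) ^ (-(1 : ℝ) / 3) = 1 / 2 := by
        have : (8 : ℝ) = (2 : ℝ) ^ (3 : ℝ) := by norm_num
        rw [this, ← Real.rpow_mul (by norm_num)]
        norm_num
      have h3 : ((9 : ℝ)) ^ (-(1 : ℝ) / 3) < (8 : ℝ) ^ (-(1 : ℝ) / 3) :=
        Real.rpow_lt_rpow_of_neg (by norm_num) (by norm_num) (by norm_num)
      have h4 : (3 : ℝ) ^ (2 : ℝ) = 9 := by norm_num
      rw [h1, h4]
      linarith)
    exact ⟨isClosed_cantorSet, ⟨0, zero_mem_cantorSet⟩, R2.H497.volume_cantorSet,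
      1 / 3, K, by norm_num, by norm_num, hK, h⟩
  · obtain ⟨K, hK, h⟩ := R2.H792.Lac.lac
    exact ⟨R2.H792.Lac.isClosed_S, ⟨0, Or.inl rfl⟩, R2.H792.Lac.volume_S, 1 / 2, K,
      by norm_num, by norm_num, hK, h⟩
  · obtain ⟨C, hC⟩ := R2.H4.sum_log_q hq
    exact ⟨C, fun N a ha P hP f g h => hC N a ha P hP f g h⟩
  · obtain ⟨a, K, h⟩ := hS.aik
    obtain ⟨C, hC⟩ := R2.H4.sum_noloss_q hq h
    exact ⟨C, fun N a ha haS P hP f g h => hC N a ha haS P hP f g h⟩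
  · obtain ⟨C, -, hC⟩ := R2.H4.avg_all
    exact ⟨C, hC⟩

end Vale.Agent.Results.P141.AveragesAndVariation
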