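import Vale.Agent.P141.Defs
import Vale.Agent.P141.R2.H152.Final
import Vale.Agent.P141.R2.H152.Seven
import Vale.Agent.P141.R2.H152.Quad
import Vale.Agent.P141.R2.H152.FinalAlg
import Vale.Agent.P141.R2.H152.AlgPoly

/-!
# P141: no logarithm when one of the four functions is structured at the scale of the truncation
-/

namespace Vale.Agent.Results.P141.DualFunctions

open Vale.Agent.P141 Vale.Agent.P141.H97 Vale.Agent.P141.R2.H152 MeasureTheory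
open scoped ENNReal SchwartzMap

/-- `D` is structured at scale `H` with mass `M`: an average, against a measure of total mass at
most `M`, of averages over `h ∈ [0,H]³` of a product of three functions bounded by one, the first
depending on `x + h₁, h₂, h₃`, the second on `x + h₂, h₁, h₃`, the third on `x + h₃, h₁, h₂`. -/
def Struct (H M : ℝ) (D : ℝ → ℂ) : Prop :=
  ∃ (Ω : Type) (_ : MeasurableSpace Ω) (μ : Measure Ω) (G : Fin 3 → Ω × ℝ × ℝ × ℝ → ℂ),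
    μ Set.univ ≤ ENNReal.ofReal M ∧ (∀ i, Measurable (G i)) ∧ (∀ i z, ‖G i z‖ ≤ 1) ∧
    ∀ x, D x = ∫ ω, (((H ^ 3 : ℝ) : ℂ)⁻¹ *
      ∫ h in Set.Icc (0 : ℝ) H ×ˢ (Set.Icc (0 : ℝ) H ×ˢ Set.Icc (0 : ℝ) H),
        G 0 (ω, x + h.1, h.2.1, h.2.2) * G 1 (ω, x + h.2.1, h.1, h.2.2) *
          G 2 (ω, x + h.2.2, h.1, h.2.1)) ∂μ

theorem struct_iff {H M : ℝ} {D : ℝ → ℂ} : Struct H M D ↔ Alg H M D := Iff.rfl

theorem Struct.of {H : ℝ} {D : ℝ → ℂ} {G₁ G₂ G₃ : ℝ × ℝ × ℝ → ℂ} (g₁ : One G₁) (g₂ : One G₂)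
    (g₃ : One G₃) (hD : ∀ x, dualFn H G₁ G₂ G₃ x = D x) : Struct H 1 D := by
  have h := Alg.of_one (H := H) g₁ g₂ g₃
  rwa [show dualFn H G₁ G₂ G₃ = D from funext hD] at h

theorem slopes_eq (ε R α₁ α₂ α₃ : ℝ) (f₁ f₂ f₃ : ℝ → ℂ) (x : ℝ) :
    TT ε R α₁ α₂ α₃ f₁ f₂ f₃ x = ∫ t in {t : ℝ | ε < |t| ∧ |t| < R},
      f₁ (x - α₁ * t) * f₂ (x - α₂ * t) * f₃ (x - α₃ * t) / (t : ℂ) := by
  unfold TT ph FF uu
  rw [← integral_indicator (setA_meas ε R)]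
  congr 1
  funext t
  by_cases ht : t ∈ {t : ℝ | ε < |t| ∧ |t| < R}
  · rw [Set.indicator_of_mem ht, Set.indicator_of_mem ht, div_eq_mul_inv, mul_comm]
  · rw [Set.indicator_of_notMem ht, Set.indicator_of_notMem ht, zero_mul]

theorem trunc_eq (f₁ f₂ f₃ : ℝ → ℂ) (ε R : ℝ) :
    truncTHT f₁ f₂ f₃ ε R = TT ε R 1 2 3 f₁ f₂ f₃ := by
  funext x
  rw [TT_eq]
  rfl

theorem swap12 (ε R α₁ α₂ α₃ : ℝ) (f₁ f₂ f₃ : ℝ → ℂ) :
    TT ε R α₁ α₂ α₃ f₁ f₂ f₃ = TT ε R α₂ α₁ α₃ f₂ f₁ f₃ := by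
  funext x
  unfold TT ph FF
  congr 1
  funext t
  ring

theorem rot (ε R α₁ α₂ α₃ : ℝ) (f₁ f₂ f₃ : ℝ → ℂ) :
    TT ε R α₁ α₂ α₃ f₁ f₂ f₃ = TT ε R α₃ α₁ α₂ f₃ f₁ f₂ := by
  funext x
  unfold TT ph FF
  congr 1
  funext t
  ring

theorem nice (f : 𝓢(ℝ, ℂ)) : Nice f where
  meas := f.continuous.measurable
  bdd := by
    obtain ⟨C, hC⟩ := f.decay 0 0
    exact ⟨C, fun x => by simpa using hC.2 x⟩
  int := f.integrable

theorem aux {M S K L : ℝ} (hM : 0 ≤ M) (h1 : K ≤ S) (h2 : 0 ≤ S) (h3 : 0 ≤ L) :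
    M * (K + 2 * L) ≤ (S + 2) * M * (1 + L) := by
  have h : K + 2 * L ≤ (S + 2) * (1 + L) := by nlinarith [mul_nonneg h2 h3]
  calc M * (K + 2 * L) ≤ M * ((S + 2) * (1 + L)) := mul_le_mul_of_nonneg_left h hM
    _ = _ := by ring

theorem result :
    -- the operator `T`, truncated, with `D` in each of its four places
    (∃ C : ℝ, ∀ (H M : ℝ) (D : ℝ → ℂ), 0 < H → 0 < M → Struct H M D →
      ∀ f g h : 𝓢(ℝ, ℂ), ∀ ε R : ℝ, 0 < ε → ε < R →
        eLpNorm (truncTHT D f g ε R) (3 / 2) volume ≤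
          ENNReal.ofReal (C * M * (1 + Real.posLog (R / H))) * eLpNorm f 3 volume *
            eLpNorm g 3 volume ∧
        eLpNorm (truncTHT f D g ε R) (3 / 2) volume ≤
          ENNReal.ofReal (C * M * (1 + Real.posLog (R / H))) * eLpNorm f 3 volume *
            eLpNorm g 3 volume ∧
        eLpNorm (truncTHT f g D ε R) (3 / 2) volume ≤
          ENNReal.ofReal (C * M * (1 + Real.posLog (R / H))) * eLpNorm f 3 volume *
            eLpNorm g 3 volume ∧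
        ‖∫ x, D x * truncTHT f g h ε R x‖ ≤ C * M * (1 + Real.posLog (R / H)) *
          ((eLpNorm f 3 volume).toReal * (eLpNorm g 3 volume).toReal *
            (eLpNorm h 3 volume).toReal)) ∧
    -- arbitrary slopes
    (∃ C : ℝ, ∀ (H M : ℝ) (D : ℝ → ℂ), 0 < H → 0 < M → Struct H M D → ∀ α₁ α₂ α₃ : ℝ,
      α₁ ≠ 0 → α₂ ≠ α₁ → α₃ ≠ α₁ → α₂ ≠ α₃ → ∀ f g : 𝓢(ℝ, ℂ), ∀ ε R : ℝ, 0 < ε → ε < R →
        eLpNorm (fun x => ∫ t in {t : ℝ | ε < |t| ∧ |t| < R},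
            D (x - α₁ * t) * f (x - α₂ * t) * g (x - α₃ * t) / (t : ℂ)) (3 / 2) volume ≤
          ENNReal.ofReal (M * (C * (|α₁ * (α₂ - α₁) * (α₃ - α₁)| ^ ((1 : ℝ) / 3) *
              (1 + |α₁|⁻¹ + |α₂ - α₁|⁻¹ + |α₃ - α₁|⁻¹)) + 2 * Real.posLog (R / H))) *
            eLpNorm f 3 volume * eLpNorm g 3 volume) ∧
    -- the dual functions of the `U³` norm are structured
    (∀ (H : ℝ) (F : Fin 7 → ℝ → ℂ), (∀ i, Measurable (F i)) → (∀ i x, ‖F i x‖ ≤ 1) →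
      Struct H 1 fun x => ((H ^ 3 : ℝ) : ℂ)⁻¹ *
        ∫ h in Set.Icc (0 : ℝ) H ×ˢ (Set.Icc (0 : ℝ) H ×ˢ Set.Icc (0 : ℝ) H),
          F 0 (x + h.1) * F 1 (x + h.2.1) * F 2 (x + h.2.2) * F 3 (x + h.1 + h.2.1) *
            F 4 (x + h.1 + h.2.2) * F 5 (x + h.2.1 + h.2.2) * F 6 (x + h.1 + h.2.1 + h.2.2)) ∧
    -- the quadratic phases are structured at every scale
    (∀ H a b c : ℝ, 0 < H →
      Struct H 1 fun x => Complex.exp (Complex.I * ((a * x ^ 2 + b * x + c : ℝ) : ℂ))) ∧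
    -- the complex conjugates of structured functions are structured
    (∀ (H M : ℝ) (D : ℝ → ℂ), Struct H M D → Struct H M fun x => (starRingEnd ℂ) (D x)) ∧
    -- the polynomials in structured functions of scale at least `H` are structured at scale `H`
    (∀ (H : ℝ) (n : ℕ) (c : Fin n → ℂ) (k : Fin n → ℕ) (S M : (i : Fin n) → Fin (k i) → ℝ)
      (D : (i : Fin n) → Fin (k i) → ℝ → ℂ), 0 < H → (∀ i j, H ≤ S i j) → (∀ i j, 0 ≤ M i j) →
      (∀ i j, Struct (S i j) (M i j) (D i j)) →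
        Struct H (∑ i, ‖c i‖ * ∏ j, (8 * M i j)) fun x => ∑ i, c i * ∏ j, D i j x) := by
  obtain ⟨C₁, hC₁0, hC₁⟩ := alg_op
  obtain ⟨C₂, hC₂0, hC₂⟩ := alg_pair
  refine ⟨?_, ?_, ?_, ?_, ?_, ?_⟩
  · have k1 := KK_nonneg 1 (2 - 1) (3 - 1)
    have k2 := KK_nonneg 2 (1 - 2) (3 - 2)
    have k3 := KK_nonneg 3 (1 - 3) (2 - 3)
    have k4 := KK_nonneg 1 2 3
    refine ⟨C₁ * (KK 1 (2 - 1) (3 - 1) + KK 2 (1 - 2) (3 - 2) + KK 3 (1 - 3) (2 - 3)) +
      C₂ * KK 1 2 3 + 2, fun H M D hH hM hD f g h ε R hε hR => ?_⟩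
    have hL : 0 ≤ Real.posLog (R / H) := Real.posLog_nonneg
    have c1 := mul_nonneg hC₁0 k1
    have c2 := mul_nonneg hC₁0 k2
    have c3 := mul_nonneg hC₁0 k3
    have c4 := mul_nonneg hC₂0 k4
    have key : ∀ K : ℝ, K ≤ C₁ * (KK 1 (2 - 1) (3 - 1) + KK 2 (1 - 2) (3 - 2) +
        KK 3 (1 - 3) (2 - 3)) + C₂ * KK 1 2 3 → M * (K + 2 * Real.posLog (R / H)) ≤
        (C₁ * (KK 1 (2 - 1) (3 - 1) + KK 2 (1 - 2) (3 - 2) + KK 3 (1 - 3) (2 - 3)) +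
          C₂ * KK 1 2 3 + 2) * M * (1 + Real.posLog (R / H)) := by
      intro K hK
      exact aux hM.le hK (by linarith) hL
    refine ⟨?_, ?_, ?_, ?_⟩
    · rw [trunc_eq]
      refine (hC₁ H M 1 2 3 D hH hM (by norm_num) (by norm_num) (by norm_num) (by norm_num)
        hD f g (nice f) (nice g) ε R hε hR).trans ?_
      gcongr ?_ * _ * _
      exact ENNReal.ofReal_le_ofReal (key _ (by linarith))
    · rw [trunc_eq, swap12]
      refine (hC₁ H M 2 1 3 D hH hM (by norm_num) (by norm_num) (by norm_num) (by norm_num)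
        hD f g (nice f) (nice g) ε R hε hR).trans ?_
      gcongr ?_ * _ * _
      exact ENNReal.ofReal_le_ofReal (key _ (by linarith))
    · rw [trunc_eq, rot]
      refine (hC₁ H M 3 1 2 D hH hM (by norm_num) (by norm_num) (by norm_num) (by norm_num)
        hD f g (nice f) (nice g) ε R hε hR).trans ?_
      gcongr ?_ * _ * _
      exact ENNReal.ofReal_le_ofReal (key _ (by linarith))
    · rw [trunc_eq]
      refine (hC₂ H M 1 2 3 D hH hM (by norm_num) (by norm_num) (by norm_num) (by norm_num)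
        hD f g h (nice f) (nice g) (nice h) ε R hε hR).trans ?_
      exact mul_le_mul_of_nonneg_right (key _ (by linarith)) (by positivity)
  · refine ⟨C₁, fun H M D hH hM hD α₁ α₂ α₃ n₁ n₂ n₃ n f g ε R hε hR => ?_⟩
    have h := hC₁ H M α₁ α₂ α₃ D hH hM n₁ n₂ n₃ n hD f g (nice f) (nice g) ε R hε hR
    have e : TT ε R α₁ α₂ α₃ D f g =
        fun x => ∫ t in {t : ℝ | ε < |t| ∧ |t| < R},
          D (x - α₁ * t) * f (x - α₂ * t) * g (x - α₃ * t) / (t : ℂ) :=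
      funext fun x => slopes_eq _ _ _ _ _ _ _ _ x
    rw [e] at h
    exact h
  · intro H F hF hF1
    obtain ⟨G₁, G₂, G₃, g₁, g₂, g₃, hx⟩ := dual_seven (H := H) F hF hF1
    exact Struct.of g₁ g₂ g₃ hx
  · intro H a b c hH
    obtain ⟨G₁, G₂, G₃, g₁, g₂, g₃, hx⟩ := dual_quad hH a b c
    exact Struct.of g₁ g₂ g₃ hx
  · intro H M D hD
    exact Alg.conj hD
  · intro H n c k S M D hH hS hM hD
    exact Alg.poly hH n c k S M D hS hM hD

end Vale.Agent.Results.P141.DualFunctions
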