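import Vale.Agent.P141.R2.H106.Last

/-!
# P141: the trilinear Hilbert transform, one function structured at the scale of the distance
to a set

`LocNil φ A d h`: around every `y` with `d y > 0` the function `h` is, on the interval
`|x - y| ≤ d y / 2`, the product of an amplitude `r` with `|r|, |r'| d(y), |r''| d(y)² ≤ A` and a
two-step nilsequence `nil φ θ Q l c`; `r, θ, Q, l, c` may depend on `y`.

`Amp E v`: `|v| ≤ 1`, and `v` has variation at most one on every interval without points of `E`.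

`P4.Aik d a K`: `d ≥ 0` is 1-Lipschitz, positive almost everywhere, `0 < a < 1` and
`∫_{|z - y| ≤ ρ} d(z)^(-a) dz ≤ K ρ^(1-a)` whenever `0 < ρ` and `d(y) ≤ ρ`.

`LSd κ c d h`: `|h| ≤ κ` and `Rep κ (c d(y)) h(· + y)` for all `y` with `d(y) > 0`; `Rep κ L h`:
`h(a + b + c)` is, for `|a|, |b|, |c| ≤ L`, an integral of products `H₀(ω, a, b) H₁(ω, b, c)
H₂(ω, c, a)` of functions bounded by one with respect to a measure of mass at most `κ`.

`Bdd4 A D`: `T` exists almost everywhere, and `T` and its truncations are bounded by `A`, with `D`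
in any of the four places.  `Tr β₀ β₁ β₂ A h`: the truncations with slopes `β₁, β₂, β₀`.
-/

namespace Vale.Agent.Results.P141.LocallyStructured

open Vale.Agent.P141.R2.H106 MeasureTheory
open scoped ContDiff

theorem result :
    -- (1) structure at the scale of the distance to `K` points, times an amplitude of variation
    -- at most one on the intervals between them: the logarithm of `K`
    (∀ (m : ℕ) (φ : (Fin m → ℝ) → ℂ), ContDiff ℝ ∞ φ → HasCompactSupport φ → ∃ C : ℝ,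
      ∀ (A : ℝ) (E : Finset ℝ) (v g : ℝ → ℂ), 0 ≤ A → E.Nonempty → Amp E v →
        LocNil φ A (fun x => Metric.infDist x (E : Set ℝ)) g →
          Bdd4 (C * A * (1 + Real.log E.card)) (fun x => v x * g x)) ∧
    -- (2) scales with Aikawa's condition: no loss
    (∀ (m : ℕ) (φ : (Fin m → ℝ) → ℂ), ContDiff ℝ ∞ φ → HasCompactSupport φ →
      ∀ a K : ℝ, ∃ C : ℝ, 0 < C ∧ ∀ A : ℝ, 0 ≤ A → ∀ d : ℝ → ℝ, P4.Aik d a K →
        ∀ h : ℝ → ℂ, LocNil φ A d h → Bdd4 (C * A) h) ∧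
    -- (3) phases whose third derivative is at most `A d⁻³` belong to the class
    (∀ A : ℝ, 0 ≤ A → ∃ B : ℝ, 0 ≤ B ∧ ∀ d : ℝ → ℝ, (∀ x y, d x ≤ d y + |x - y|) →
      ∀ ψ ψ₁ ψ₂ ψ₃ : ℝ → ℝ, Measurable ψ →
        (∀ x, 0 < d x → HasDerivAt ψ (ψ₁ x) x ∧ HasDerivAt ψ₁ (ψ₂ x) x ∧
          HasDerivAt ψ₂ (ψ₃ x) x ∧ |ψ₃ x| * d x ^ 3 ≤ A) →
        LocNil (fun _ : Fin 0 → ℝ => (1 : ℂ)) B d
          (fun x => Complex.exp (((ψ x : ℝ) : ℂ) * Complex.I))) ∧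
    -- (4) the class is locally structured
    (∀ (m : ℕ) (φ : (Fin m → ℝ) → ℂ), ContDiff ℝ ∞ φ → HasCompactSupport φ →
      ∃ C : ℝ, 0 < C ∧ ∀ A : ℝ, 0 ≤ A → ∀ d : ℝ → ℝ, ∀ h : ℝ → ℂ, LocNil φ A d h →
        LSd (C * A) (1 / 8) d h) ∧
    -- (5) all locally structured functions, all slopes, all truncations: `K` points
    (∀ c : ℝ, 0 < c → ∀ β₀ β₁ β₂ : ℝ, β₁ ≠ 0 → β₂ ≠ 0 → β₁ ≠ β₂ → ∃ C : ℝ,
      ∀ (κ : ℝ) (E : Finset ℝ) (v h : ℝ → ℂ), 0 ≤ κ → E.Nonempty → Amp E v →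
        LSd κ c (fun x => Metric.infDist x (E : Set ℝ)) h →
          Tr β₀ β₁ β₂ (C * κ * (1 + Real.log E.card)) (fun x => v x * h x)) ∧
    -- (6) all locally structured functions, all slopes, all truncations: Aikawa's condition
    (∀ c : ℝ, 0 < c → ∀ β₀ β₁ β₂ : ℝ, β₁ ≠ 0 → β₂ ≠ 0 → β₁ ≠ β₂ → ∀ a K : ℝ, ∃ C : ℝ,
      ∀ (κ : ℝ) (d : ℝ → ℝ) (h : ℝ → ℂ), 0 ≤ κ → P4.Aik d a K → LSd κ c d h →
        Tr β₀ β₁ β₂ (C * κ) h) :=
  ⟨fun _ φ h1 h2 => amp_fin φ h1 h2, fun _ φ h1 h2 a K => locNil_aik φ h1 h2 a K, phase_loc,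
    fun _ _ h1 h2 => locNil_ls h1 h2, fun _ hc _ _ _ h1 h2 h12 => tr_fin hc h1 h2 h12,
    fun _ hc _ _ _ h1 h2 h12 a K => tr_aik hc h1 h2 h12 a K⟩

end Vale.Agent.Results.P141.LocallyStructured
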