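import Vale.Agent.P141.R2.H860.Tens

/-!
# P141: the trilinear Hilbert transform with a two-step nilsequence in one place

`Bounds H`, `H` a set of functions `h : ℝ → ℂ` (see `Vale.Agent.P141.R2.H898.Bounds`): there is a
constant `C` such that for all `h ∈ H`

* the limits which define `T(h, f, g)`, `T(f, h, g)`, `T(f, g, h)` exist at every point and these
  functions have `L^{3/2}` norm at most `C ‖f‖_3 ‖g‖_3`;
* the same holds for all truncations, and with arbitrary slopes;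
* `|∫ h T_{ε,R}(f₁, f₂, f₃)| ≤ C ‖f₁‖_3 ‖f₂‖_3 ‖f₃‖_3`.

It is proved for

* (A) all functions `h(t) = F(g(t) Γ)`, `F` a fixed smooth function on a two-step nilmanifold
  `G / Γ`, `g` any polynomial orbit, in Malcev coordinates `G = ℝ^d × ℝ^m` with the group law
  `(x, z)(y, w) = (x + y, z + w + B(x, y))`, `B` an integral bilinear map, `Γ` the integer points;
* (B) all functions `h(t) = Σ_{n ∈ ℤ^d, k ∈ ℤ^m} Ψ(θ t + θ₀ - n, P(t, n) - k)`, `Ψ` a fixed smooth
  function with compact support, `P` any `m` real quadratic polynomials in `d + 1` variables;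
* (C) all functions `h(t) = Σ_{n ∈ ℤ^d} φ(θ t - n) e(q(t, n))`, `φ` a fixed smooth function with
  compact support, `q` any real quadratic polynomial in `d + 1` variables;
* (D) all bounded `C^1` functions with
  `h(A+B+C) = Σ_{j ∈ J} ∫ ψ(ξ) U_j(ξ,A,B) V_j(ξ,B,C) W_j(ξ,C,A) dξ`, `|U_j|, |V_j|, |W_j| ≤ 1`,
  `|J| ∫ |ψ| ≤ 1`.
-/

namespace Vale.Agent.Results.P141.Nilsequences

open Vale.Agent.P141 Vale.Agent.P141.R2.H860 Vale.Agent.P141.R2.H898
open scoped ContDiff

theorem result :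
    -- (A) smooth functions on two-step nilmanifolds, along all polynomial orbits
    (∀ (d m : ℕ) (B : Fin m → Fin d → Fin d → ℤ) (F : (Fin d → ℝ) × (Fin m → ℝ) → ℂ),
      ContDiff ℝ ∞ F → Inv B F →
      Bounds {h : ℝ → ℂ | ∃ (θ θ₀ : Fin d → ℝ) (a b c : Fin m → ℝ), h = orb F θ θ₀ a b c}) ∧
    -- (B) double sums, all real quadratic polynomials
    (∀ (d m : ℕ) (Ψ : (Fin d ⊕ Fin m → ℝ) → ℂ), ContDiff ℝ ∞ Ψ → HasCompactSupport Ψ →
      Bounds {h : ℝ → ℂ | ∃ (θ θ₀ : Fin d → ℝ) (Q : Fin m → Fin (d + 1) → Fin (d + 1) → ℝ)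
        (l : Fin m → Fin (d + 1) → ℝ) (c : Fin m → ℝ), h = dsum Ψ θ θ₀ Q l c}) ∧
    -- (C) sums with quadratic phases, all real quadratic polynomials
    (∀ (d : ℕ) (φ : (Fin d → ℝ) → ℂ), ContDiff ℝ ∞ φ → HasCompactSupport φ →
      Bounds {h : ℝ → ℂ | ∃ (θ : Fin d → ℝ) (Q : Fin (d + 1) → Fin (d + 1) → ℝ)
        (l : Fin (d + 1) → ℝ) (c : ℝ), h = nil φ θ Q l c}) ∧
    -- (D) functions with an absolutely convergent splitting, absolute constant
    Bounds Tens :=
  ⟨fun _ _ _ _ hF h => bounds_orb hF h, fun _ _ Ψ h1 h2 => bounds_dsum Ψ h1 h2,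
    fun _ φ h1 h2 => bounds_nil φ h1 h2, bounds_tens⟩

end Vale.Agent.Results.P141.Nilsequences
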